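import Mathlib

/-!
P287, sharp bound, row B (helper11, second pen): Bezout for an irreducible plane curve.
-/

namespace Vale.Agent.P287.R2.H11

open Module Submodule MvPolynomial

/-- plane polynomials of degree at most `k` -/
noncomputable abbrev Vk (k : ℕ) : Submodule ℂ (MvPolynomial (Fin 2) ℂ) :=
  restrictTotalDegree (Fin 2) ℂ k

theorem two_mul_finrank (k : ℕ) : 2 * finrank ℂ (Vk k) = (k + 1) * (k + 2) := by
  have h1 : finrank ℂ (Vk k) = Nat.card {n : Fin 2 →₀ ℕ | (n.sum fun _ e => e) ≤ k} :=
    Module.finrank_eq_nat_card_basis (basisRestrictSupport ℂ _)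
  have hsum : ∀ n : Fin 2 →₀ ℕ, (n.sum fun _ e => e) = n 0 + n 1 := by
    intro n
    rw [Finsupp.sum_fintype _ _ (fun _ => rfl), Fin.sum_univ_two]
  let T : Finset (Σ _ : ℕ, ℕ) := (Finset.range (k + 1)).sigma fun i => Finset.range (k + 1 - i)
  have h2 : Nat.card {n : Fin 2 →₀ ℕ | (n.sum fun _ e => e) ≤ k} = T.card := by
    have hT : T.card = Nat.card T := by simp
    rw [hT]
    refine Nat.card_congr
      { toFun := fun n => ⟨⟨n.1 0, n.1 1⟩, ?_⟩
        invFun := fun t => ⟨Finsupp.equivFunOnFinite.symm ![t.1.1, t.1.2], ?_⟩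
        left_inv := ?_
        right_inv := ?_ }
    · have := n.2
      simp only [Set.mem_ofPred_eq, hsum] at this
      simp only [T, Finset.mem_sigma, Finset.mem_range]
      omega
    · have := t.2
      simp only [T, Finset.mem_sigma, Finset.mem_range] at this
      simp only [Set.mem_ofPred_eq, hsum]
      simp
      omega
    · intro n
      ext i
      fin_cases i <;> simp
    · intro t
      simp
  rw [h1, h2, Finset.card_sigma]
  simp only [Finset.card_range]
  have h3 : ∑ i ∈ Finset.range (k + 1), (k + 1 - i) = ∑ i ∈ Finset.range (k + 1), (i + 1) := by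
    rw [← Finset.sum_range_reflect]
    apply Finset.sum_congr rfl
    intro i hi
    rw [Finset.mem_range] at hi
    omega
  rw [h3, Finset.sum_add_distrib, Finset.sum_const, Finset.card_range, smul_eq_mul, mul_one,
    mul_add, mul_comm 2 (∑ i ∈ Finset.range (k + 1), i), Finset.sum_range_id_mul_two]
  simp only [Nat.add_sub_cancel]
  ring

theorem eval_surj (s : Finset (Fin 2 → ℂ)) (k : ℕ) (hk : s.card ≤ k + 1)
    (c : (Fin 2 → ℂ) → ℂ) : ∃ p : MvPolynomial (Fin 2) ℂ, p.totalDegree ≤ k ∧
      ∀ x ∈ s, eval x p = c x := by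
  classical
  have hsep : ∀ x y : Fin 2 → ℂ, ∃ i, x ≠ y → x i ≠ y i := by
    intro x y
    by_cases h : x = y
    · exact ⟨0, fun h' => absurd h h'⟩
    · obtain ⟨i, hi⟩ := Function.ne_iff.mp h
      exact ⟨i, fun _ => hi⟩
  choose ι hι using hsep
  let L : (Fin 2 → ℂ) → MvPolynomial (Fin 2) ℂ := fun x =>
    ∏ y ∈ s.erase x, (X (ι x y) - C (y (ι x y)))
  have hdeg : ∀ x ∈ s, (L x).totalDegree ≤ k := by
    intro x hx
    calc (L x).totalDegree ≤ ∑ y ∈ s.erase x, (X (ι x y) - C (y (ι x y)) :
          MvPolynomial (Fin 2) ℂ).totalDegree := totalDegree_finsetProd _ _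
      _ ≤ ∑ y ∈ s.erase x, 1 := by
          apply Finset.sum_le_sum
          intro y _
          refine (totalDegree_sub _ _).trans ?_
          rw [totalDegree_X, totalDegree_C]
          simp
      _ = (s.erase x).card := by simp
      _ ≤ k := by
          rw [Finset.card_erase_of_mem hx]
          omega
  have hne : ∀ x, eval x (L x) ≠ 0 := by
    intro x
    simp only [L, map_prod, map_sub, eval_X, eval_C]
    rw [Finset.prod_ne_zero_iff]
    intro y hy
    rw [sub_ne_zero]
    exact hι x y (Finset.ne_of_mem_erase hy).symm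
  have hz : ∀ x ∈ s, ∀ z ∈ s, z ≠ x → eval z (L x) = 0 := by
    intro x hx z hz hzx
    simp only [L, map_prod, map_sub, eval_X, eval_C]
    apply Finset.prod_eq_zero (Finset.mem_erase.mpr ⟨hzx, hz⟩)
    rw [sub_self]
  refine ⟨∑ x ∈ s, C (c x / eval x (L x)) * L x, ?_, ?_⟩
  · apply totalDegree_finsetSum_le
    intro x hx
    refine (totalDegree_mul _ _).trans ?_
    rw [totalDegree_C, zero_add]
    exact hdeg x hx
  · intro z hzs
    rw [map_sum, Finset.sum_eq_single z]
    · rw [map_mul, eval_C, div_mul_cancel₀ _ (hne z)]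
    · intro x hx hxz
      rw [map_mul, hz x hx z hzs hxz.symm, mul_zero]
    · intro h
      exact absurd hzs h

/-- **Bezout for an irreducible polynomial.** -/
theorem row_B (f g : MvPolynomial (Fin 2) ℂ) (hf : Irreducible f) (hfg : ¬ f ∣ g)
    (s : Finset (Fin 2 → ℂ)) (hs : ∀ x ∈ s, eval x f = 0 ∧ eval x g = 0) :
    s.card ≤ f.totalDegree * g.totalDegree := by
  have hf0 : f ≠ 0 := hf.ne_zero
  have hg0 : g ≠ 0 := fun h => hfg (h ▸ dvd_zero f)
  set a := f.totalDegree with ha
  set b := g.totalDegree with hb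
  set m := s.card with hm
  -- evaluation
  let E : Vk (a + b + m) →ₗ[ℂ] (s → ℂ) := LinearMap.pi fun x =>
    (aeval (x : Fin 2 → ℂ)).toLinearMap.comp (Vk (a + b + m)).subtype
  have hE : ∀ p x, E p x = eval (x : Fin 2 → ℂ) (p : MvPolynomial (Fin 2) ℂ) := by
    intro p x
    simp only [E, LinearMap.pi_apply, LinearMap.comp_apply, Submodule.subtype_apply,
      AlgHom.toLinearMap_apply]
    rw [MvPolynomial.aeval_eq_eval]
  have hEs : LinearMap.range E = ⊤ := by
    rw [LinearMap.range_eq_top]
    intro c
    classical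
    obtain ⟨p, hp, hpe⟩ := eval_surj s (a + b + m) (by omega)
      (fun x => if h : x ∈ s then c ⟨x, h⟩ else 0)
    refine ⟨⟨p, (mem_restrictTotalDegree _ _ _).mpr hp⟩, ?_⟩
    funext x
    rw [hE]
    show eval (x : Fin 2 → ℂ) p = c x
    rw [hpe x x.2, dif_pos x.2]
  -- combinations
  let Φ : (Vk (b + m) × Vk (a + m)) →ₗ[ℂ] Vk (a + b + m) :=
    LinearMap.codRestrict _ (((LinearMap.mulLeft ℂ f).comp (Vk (b + m)).subtype).coprod
      ((LinearMap.mulLeft ℂ g).comp (Vk (a + m)).subtype)) (by
        rintro ⟨u, v⟩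
        rw [mem_restrictTotalDegree]
        simp only [LinearMap.coprod_apply, LinearMap.comp_apply, Submodule.subtype_apply,
          LinearMap.mulLeft_apply]
        have hu := (mem_restrictTotalDegree _ _ _).mp u.2
        have hv := (mem_restrictTotalDegree _ _ _).mp v.2
        refine (totalDegree_add _ _).trans (max_le ?_ ?_)
        · refine (totalDegree_mul _ _).trans ?_
          omega
        · refine (totalDegree_mul _ _).trans ?_
          omega)
  have hΦ : ∀ w, (Φ w : MvPolynomial (Fin 2) ℂ) = f * w.1 + g * w.2 := by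
    intro w
    rfl
  let Ψ : Vk m →ₗ[ℂ] (Vk (b + m) × Vk (a + m)) := LinearMap.prod
    (LinearMap.codRestrict _ ((LinearMap.mulLeft ℂ (-g)).comp (Vk m).subtype) (by
      intro u
      rw [mem_restrictTotalDegree]
      have hu := (mem_restrictTotalDegree _ _ _).mp u.2
      simp only [LinearMap.comp_apply, Submodule.subtype_apply, LinearMap.mulLeft_apply]
      refine (totalDegree_mul _ _).trans ?_
      rw [totalDegree_neg]
      omega))
    (LinearMap.codRestrict _ ((LinearMap.mulLeft ℂ f).comp (Vk m).subtype) (by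
      intro u
      rw [mem_restrictTotalDegree]
      have hu := (mem_restrictTotalDegree _ _ _).mp u.2
      simp only [LinearMap.comp_apply, Submodule.subtype_apply, LinearMap.mulLeft_apply]
      refine (totalDegree_mul _ _).trans ?_
      omega))
  have hker : LinearMap.ker Φ ≤ LinearMap.range Ψ := by
    rintro ⟨u, v⟩ h
    have h1 : f * (u : MvPolynomial (Fin 2) ℂ) + g * v = 0 := by
      have := congr_arg Subtype.val (LinearMap.mem_ker.mp h)
      rw [hΦ] at this
      exact this
    have h2 : f ∣ g * (v : MvPolynomial (Fin 2) ℂ) := ⟨-u, by linear_combination h1⟩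
    obtain ⟨v', hv'⟩ := (hf.prime.dvd_or_dvd h2).resolve_left hfg
    have hu' : (u : MvPolynomial (Fin 2) ℂ) = - g * v' := by
      have h3 : f * ((u : MvPolynomial (Fin 2) ℂ) + g * v') = 0 := by
        rw [hv'] at h1
        linear_combination h1
      have h4 := (mul_eq_zero.mp h3).resolve_left hf0
      linear_combination h4
    have hvd : v'.totalDegree ≤ m := by
      by_cases h0 : v' = 0
      · rw [h0, totalDegree_zero]
        omega
      · have h5 := totalDegree_mul_of_isDomain hf0 h0
        have h6 := (mem_restrictTotalDegree _ _ _).mp v.2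
        rw [hv'] at h6
        omega
    refine ⟨⟨v', (mem_restrictTotalDegree _ _ _).mpr hvd⟩, ?_⟩
    ext1
    · apply Subtype.ext
      exact hu'.symm
    · apply Subtype.ext
      exact hv'.symm
  have hΦE : LinearMap.range Φ ≤ LinearMap.ker E := by
    rintro _ ⟨w, rfl⟩
    rw [LinearMap.mem_ker]
    funext x
    rw [hE, hΦ, map_add, map_mul, map_mul, (hs x x.2).1, (hs x x.2).2]
    simp
  have r1 := LinearMap.finrank_range_add_finrank_ker E
  have r2 := LinearMap.finrank_range_add_finrank_ker Φ
  have r3 : finrank ℂ (LinearMap.ker Φ) ≤ finrank ℂ (Vk m) :=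
    (Submodule.finrank_mono hker).trans (LinearMap.finrank_range_le Ψ)
  have r4 := Submodule.finrank_mono hΦE
  rw [hEs, finrank_top, Module.finrank_fintype_fun_eq_card, Fintype.card_coe] at r1
  rw [Module.finrank_prod] at r2
  have n1 := two_mul_finrank (a + b + m)
  have n2 := two_mul_finrank (b + m)
  have n3 := two_mul_finrank (a + m)
  have n4 := two_mul_finrank m
  rw [← hm] at r1
  have key : 2 * m + (b + m + 1) * (b + m + 2) + (a + m + 1) * (a + m + 2) ≤
      (a + b + m + 1) * (a + b + m + 2) + (m + 1) * (m + 2) := by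
    rw [← n1, ← n2, ← n3, ← n4]
    omega
  nlinarith

end Vale.Agent.P287.R2.H11
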