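import Mathlib.Data.Set.Card
import Mathlib.Tactic

/-!
P287, part 2 (helper11): a configuration in which every line has exactly three points and every
point outside a line is collinear with exactly one point of the line has at most `27` points.
-/

namespace Vale.Agent.P287.R2.H11

/-- `c` is the collinearity of a nondegenerate generalized quadrangle with three points on every
line. -/
structure GQ {X : Type*} (c : X → X → Prop) : Prop where
  symm : ∀ x y, c x y → c y x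
  irr : ∀ x, ¬ c x x
  third : ∀ x y, c x y → ∃ z, c x z ∧ c y z ∧ ∀ p, p ≠ x → p ≠ y → p ≠ z →
    (c p x ∧ ¬ c p y ∧ ¬ c p z) ∨ (¬ c p x ∧ c p y ∧ ¬ c p z) ∨ (¬ c p x ∧ ¬ c p y ∧ c p z)
  nondeg : ∀ x, ∃ y, y ≠ x ∧ ¬ c x y
  ex : ∃ x y, c x y

variable {X : Type*} {c : X → X → Prop}

namespace GQ

variable (h : GQ c)
include h

theorem ne {x y : X} (hxy : c x y) : x ≠ y := by
  rintro rfl
  exact h.irr x hxy

theorem uniq {x y z w : X} (hxy : c x y) (h1 : c x z) (h2 : c y z) (h3 : c x w) (h4 : c y w) :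
    z = w := by
  obtain ⟨t, -, -, ht⟩ := h.third x y hxy
  have key : ∀ p, c x p → c y p → p = t := by
    intro p h5 h6
    by_contra hp
    rcases ht p (h.ne h5).symm (h.ne h6).symm hp with ⟨_, h7, _⟩ | ⟨h7, _, _⟩ | ⟨h7, _, _⟩
    · exact h7 (h.symm _ _ h6)
    · exact h7 (h.symm _ _ h5)
    · exact h7 (h.symm _ _ h5)
  rw [key z h1 h2, key w h3 h4]

/-- a point outside a triangle is collinear with exactly one of its points -/
theorem one {x y z p : X} (hxy : c x y) (hxz : c x z) (hyz : c y z) (h1 : p ≠ x) (h2 : p ≠ y)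
    (h3 : p ≠ z) :
    (c p x ∧ ¬ c p y ∧ ¬ c p z) ∨ (¬ c p x ∧ c p y ∧ ¬ c p z) ∨ (¬ c p x ∧ ¬ c p y ∧ c p z) := by
  obtain ⟨t, ht1, ht2, ht⟩ := h.third x y hxy
  obtain rfl : z = t := h.uniq hxy hxz hyz ht1 ht2
  exact ht p h1 h2 h3

/-- if `p` is collinear with `x` then not with the other two points -/
theorem not_of {x y z p : X} (hxy : c x y) (hxz : c x z) (hyz : c y z) (h2 : p ≠ y)
    (h3 : p ≠ z) (hp : c p x) : ¬ c p y ∧ ¬ c p z := by
  rcases h.one hxy hxz hyz (h.ne hp) h2 h3 with h1 | h1 | h1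
  · exact h1.2
  · exact absurd hp h1.1
  · exact absurd hp h1.1

/-- if `p` is not collinear with `x` and `y` then it is collinear with `z` -/
theorem of_not {x y z p : X} (hxy : c x y) (hxz : c x z) (hyz : c y z) (h1 : p ≠ x) (h2 : p ≠ y)
    (h3 : p ≠ z) (hx : ¬ c p x) (hy : ¬ c p y) : c p z := by
  rcases h.one hxy hxz hyz h1 h2 h3 with h1 | h1 | h1
  · exact absurd h1.1 hx
  · exact absurd h1.2.1 hy
  · exact h1.2.2

/-- the main step: two points which are not collinear have at most five common neighbours -/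
theorem five {x y i j k l : X} (hxy : ¬ c x y) (hne : x ≠ y) (hxi : c x i) (hyi : c y i)
    (hxj : c x j) (hyj : c y j) (hxk : c x k) (hyk : c y k) (hxl : c x l) (hyl : c y l)
    (hij : i ≠ j) (hik : i ≠ k) (hil : i ≠ l) (hjk : j ≠ k) (hjl : j ≠ l) (hkl : k ≠ l) :
    ∃ m, ∀ n, c x n → c y n → n ≠ i → n ≠ j → n ≠ k → n ≠ l → n = m := by
  have hyx : ¬ c y x := fun h1 => hxy (h.symm _ _ h1)
  -- the third points `w` on the lines through `x`
  have hw : ∀ n, c x n → c y n → ∃ w, c x w ∧ c n w ∧ ¬ c y w ∧ w ≠ y ∧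
      (∀ n', c x n' → c y n' → n' ≠ n → ¬ c n' w ∧ n' ≠ w) := by
    intro n h1 h2
    obtain ⟨w, hw1, hw2, hw3⟩ := h.third x n h1
    have hyw : y ≠ w := by
      rintro rfl
      exact hxy hw1
    have h3 := h.not_of (h.symm _ _ h1) hw2 hw1 hne.symm hyw h2
    refine ⟨w, hw1, hw2, h3.2, hyw.symm, fun n' h4 h5 h6 => ?_⟩
    have h7 : n' ≠ w := by
      rintro rfl
      exact h3.2 h5
    exact ⟨(h.not_of h1 hw1 hw2 h6 h7 (h.symm _ _ h4)).2, h7⟩
  have hv : ∀ n, c x n → c y n → ∃ v, c y v ∧ c n v ∧ ¬ c x v ∧ v ≠ x ∧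
      (∀ n', c x n' → c y n' → n' ≠ n → ¬ c n' v ∧ n' ≠ v) := by
    intro n h1 h2
    obtain ⟨v, hv1, hv2, hv3⟩ := h.third y n h2
    have hxv : x ≠ v := by
      rintro rfl
      exact hyx hv1
    have h3 := h.not_of (h.symm _ _ h2) hv2 hv1 hne hxv h1
    refine ⟨v, hv1, hv2, h3.2, hxv.symm, fun n' h4 h5 h6 => ?_⟩
    have h7 : n' ≠ v := by
      rintro rfl
      exact h3.2 h4
    exact ⟨(h.not_of h2 hv1 hv2 h6 h7 (h.symm _ _ h5)).2, h7⟩
  obtain ⟨wi, wi1, wi2, wi3, wi4, wi5⟩ := hw i hxi hyi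
  obtain ⟨vj, vj1, vj2, vj3, vj4, vj5⟩ := hv j hxj hyj
  obtain ⟨wl, wl1, wl2, wl3, wl4, wl5⟩ := hw l hxl hyl
  -- `wi` and `vj` are collinear
  have hwv : c wi vj := by
    refine h.of_not (x := y) (y := j) hyj vj1 vj2 wi4 (wi5 j hxj hyj hij.symm).2.symm ?_
      (fun h1 => wi3 (h.symm _ _ h1)) (fun h1 => (wi5 j hxj hyj hij.symm).1 (h.symm _ _ h1))
    rintro rfl
    exact vj3 wi1
  -- `u` is the third point of this line
  obtain ⟨u, u1, u2, -⟩ := h.third wi vj hwv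
  have hxu' : x ≠ u := by
    rintro rfl
    exact vj3 (h.symm _ _ u2)
  have hyu' : y ≠ u := by
    rintro rfl
    exact wi3 (h.symm _ _ u1)
  have hxu : ¬ c x u := (h.not_of hwv u1 u2 (Ne.symm vj4) hxu' wi1).2
  have hyu : ¬ c y u := (h.not_of (h.symm _ _ hwv) u2 u1 (Ne.symm wi4) hyu' vj1).2
  have huk : ∀ n, c x n → c y n → n ≠ i → n ≠ j → c n u := by
    intro n h1 h2 h3 h4
    refine h.of_not hwv u1 u2 (wi5 n h1 h2 h3).2 (vj5 n h1 h2 h4).2 ?_ (wi5 n h1 h2 h3).1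
      (vj5 n h1 h2 h4).1
    rintro rfl
    exact hxu h1
  have hku := huk k hxk hyk hik.symm hjk.symm
  -- `a` is the third point of the line through `u` and `k`
  obtain ⟨a, a1, a2, -⟩ := h.third k u hku
  have hxa' : x ≠ a := by
    rintro rfl
    exact hxu (h.symm _ _ a2)
  have hya' : y ≠ a := by
    rintro rfl
    exact hyu (h.symm _ _ a2)
  have hxa : ¬ c x a := (h.not_of hku a1 a2 hxu' hxa' hxk).2
  have hya : ¬ c y a := (h.not_of hku a1 a2 hyu' hya' hyk).2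
  -- `a` is not collinear with the other common neighbours
  have hna : ∀ n, c x n → c y n → n ≠ i → n ≠ j → n ≠ k → ¬ c n a := by
    intro n h1 h2 h3 h4 h5
    have h6 : n ≠ a := by
      rintro rfl
      exact hxa h1
    exact (h.not_of (h.symm _ _ hku) a2 a1 h5 h6 (huk n h1 h2 h3 h4)).2
  have hla := hna l hxl hyl hil.symm hjl.symm hkl.symm
  -- `a` and `wl` are collinear
  have hawl' : a ≠ wl := by
    rintro rfl
    exact hxa wl1
  have hal' : a ≠ l := by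
    rintro rfl
    exact hxa hxl
  have hawl : c a wl := h.of_not hxl wl1 wl2 hxa'.symm hal' hawl' (fun h1 => hxa (h.symm _ _ h1))
    (fun h1 => hla (h.symm _ _ h1))
  -- `b` is the third point of this line, it is collinear with `y`
  obtain ⟨b, b1, b2, -⟩ := h.third a wl hawl
  have hyb' : y ≠ b := by
    rintro rfl
    exact wl3 (h.symm _ _ b2)
  have hyb : c y b := h.of_not hawl b1 b2 hya' wl4.symm hyb' hya wl3
  have hxb' : x ≠ b := by
    rintro rfl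
    exact hxa (h.symm _ _ b1)
  have hxb : ¬ c x b := (h.not_of (h.symm _ _ hawl) b2 b1 hxa' hxb' wl1).2
  have hnb : ∀ n, c x n → c y n → n ≠ i → n ≠ j → n ≠ k → n ≠ l → c n b := by
    intro n h1 h2 h3 h4 h5 h6
    refine h.of_not hawl b1 b2 ?_ (wl5 n h1 h2 h6).2 ?_ (hna n h1 h2 h3 h4 h5) (wl5 n h1 h2 h6).1
    · rintro rfl
      exact hxa h1
    · rintro rfl
      exact hxb h1
  by_cases hex : ∃ m, c x m ∧ c y m ∧ m ≠ i ∧ m ≠ j ∧ m ≠ k ∧ m ≠ l
  · obtain ⟨m, h1, h2, h3, h4, h5, h6⟩ := hex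
    refine ⟨m, fun n g1 g2 g3 g4 g5 g6 => ?_⟩
    exact h.uniq hyb g2 (h.symm _ _ (hnb n g1 g2 g3 g4 g5 g6)) h2
      (h.symm _ _ (hnb m h1 h2 h3 h4 h5 h6))
  · refine ⟨i, fun n g1 g2 g3 g4 g5 g6 => absurd ⟨n, g1, g2, g3, g4, g5, g6⟩ hex⟩

/-- at most five common neighbours -/
theorem common {x y : X} (hxy : ¬ c x y) (hne : x ≠ y) :
    ∃ F : Finset X, F.card ≤ 5 ∧ ∀ n, c x n → c y n → n ∈ F := by
  classical
  by_cases h1 : ∃ i, c x i ∧ c y i
  swap
  · exact ⟨∅, by simp, fun n a b => absurd ⟨n, a, b⟩ h1⟩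
  obtain ⟨i, i1, i2⟩ := h1
  by_cases h2 : ∃ j, c x j ∧ c y j ∧ j ≠ i
  swap
  · refine ⟨{i}, by simp, fun n a b => ?_⟩
    by_contra hn
    simp only [Finset.mem_singleton] at hn
    exact h2 ⟨n, a, b, hn⟩
  obtain ⟨j, j1, j2, j3⟩ := h2
  by_cases h3 : ∃ k, c x k ∧ c y k ∧ k ≠ i ∧ k ≠ j
  swap
  · refine ⟨{i, j}, (Finset.card_le_two).trans (by norm_num), fun n a b => ?_⟩
    by_contra hn
    simp only [Finset.mem_insert, Finset.mem_singleton, not_or] at hn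
    exact h3 ⟨n, a, b, hn.1, hn.2⟩
  obtain ⟨k, k1, k2, k3, k4⟩ := h3
  by_cases h4 : ∃ l, c x l ∧ c y l ∧ l ≠ i ∧ l ≠ j ∧ l ≠ k
  swap
  · refine ⟨{i, j, k}, (Finset.card_le_three).trans (by norm_num), fun n a b => ?_⟩
    by_contra hn
    simp only [Finset.mem_insert, Finset.mem_singleton, not_or] at hn
    exact h4 ⟨n, a, b, hn.1, hn.2.1, hn.2.2⟩
  obtain ⟨l, l1, l2, l3, l4, l5⟩ := h4
  obtain ⟨m, hm⟩ := h.five hxy hne i1 i2 j1 j2 k1 k2 l1 l2 j3.symm k3.symm l3.symm k4.symm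
    l4.symm l5.symm
  refine ⟨{i, j, k, l, m}, Finset.card_le_five, fun n a b => ?_⟩
  by_contra hn
  simp only [Finset.mem_insert, Finset.mem_singleton, not_or] at hn
  exact hn.2.2.2.2 (hm n a b hn.1 hn.2.1 hn.2.2.1 hn.2.2.2.1)

/-- at most ten neighbours -/
theorem nbr (x : X) : ∃ F : Finset X, F.card ≤ 10 ∧ ∀ n, c x n → n ∈ F := by
  classical
  obtain ⟨y, hne, hxy⟩ := h.nondeg x
  obtain ⟨F, hF, hFc⟩ := h.common hxy hne.symm
  have hw : ∀ n, ∃ w, c x n → c x w ∧ c n w := by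
    intro n
    by_cases hn : c x n
    · obtain ⟨w, h1, h2, -⟩ := h.third x n hn
      exact ⟨w, fun _ => ⟨h1, h2⟩⟩
    · exact ⟨n, fun h1 => absurd h1 hn⟩
  choose w hw using hw
  refine ⟨F ∪ F.image w, ?_, fun n hn => ?_⟩
  · have h1 := Finset.card_union_le F (F.image w)
    have h2 := Finset.card_image_le (s := F) (f := w)
    omega
  · obtain ⟨h1, h2⟩ := hw n hn
    have hyn : y ≠ n := by
      rintro rfl
      exact hxy hn
    have hyw : y ≠ w n := by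
      intro h3
      rw [← h3] at h1
      exact hxy h1
    rw [Finset.mem_union, Finset.mem_image]
    rcases h.one hn h1 h2 hne hyn hyw with h3 | h3 | h3
    · exact absurd (h.symm _ _ h3.1) hxy
    · exact Or.inl (hFc n hn h3.2.1)
    · right
      refine ⟨w n, hFc _ h1 h3.2.2, ?_⟩
      obtain ⟨g1, g2⟩ := hw (w n) h1
      exact h.uniq h1 g1 g2 hn (h.symm _ _ h2)

/-- **At most 27 points.** -/
theorem card_le : ∃ F : Finset X, F.card ≤ 27 ∧ ∀ x, x ∈ F := by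
  classical
  obtain ⟨x, z, hxz⟩ := h.ex
  obtain ⟨w, hxw, hzw, ht⟩ := h.third x z hxz
  obtain ⟨A, hA, hA'⟩ := h.nbr x
  obtain ⟨B, hB, hB'⟩ := h.nbr z
  obtain ⟨C, hC, hC'⟩ := h.nbr w
  have key : ∀ (F : Finset X) (p q : X), F.card ≤ 10 → p ∈ F → q ∈ F → p ≠ q →
      ((F.erase p).erase q).card ≤ 8 := by
    intro F p q h1 h2 h3 h4
    have h5 : q ∈ F.erase p := Finset.mem_erase.2 ⟨h4.symm, h3⟩
    rw [Finset.card_erase_of_mem h5, Finset.card_erase_of_mem h2]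
    omega
  have k1 := key A z w hA (hA' z hxz) (hA' w hxw) (h.ne hzw)
  have k2 := key B x w hB (hB' x (h.symm _ _ hxz)) (hB' w hzw) (h.ne hxw)
  have k3 := key C x z hC (hC' x (h.symm _ _ hxw)) (hC' z (h.symm _ _ hzw)) (h.ne hxz)
  refine ⟨{x, z, w} ∪ ((A.erase z).erase w) ∪ ((B.erase x).erase w) ∪ ((C.erase x).erase z),
    ?_, fun p => ?_⟩
  · have h1 := Finset.card_union_le ({x, z, w} ∪ ((A.erase z).erase w) ∪ ((B.erase x).erase w))
      ((C.erase x).erase z)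
    have h2 := Finset.card_union_le ({x, z, w} ∪ ((A.erase z).erase w)) ((B.erase x).erase w)
    have h3 := Finset.card_union_le {x, z, w} ((A.erase z).erase w)
    have h4 : ({x, z, w} : Finset X).card ≤ 3 := Finset.card_le_three
    omega
  · simp only [Finset.mem_union, Finset.mem_insert, Finset.mem_singleton, Finset.mem_erase]
    by_cases hx : p = x
    · simp [hx]
    by_cases hz : p = z
    · simp [hz]
    by_cases hw : p = w
    · simp [hw]
    rcases ht p hx hz hw with h1 | h1 | h1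
    · exact Or.inl (Or.inl (Or.inr ⟨hw, hz, hA' p (h.symm _ _ h1.1)⟩))
    · exact Or.inl (Or.inr ⟨hw, hx, hB' p (h.symm _ _ h1.2.1)⟩)
    · exact Or.inr ⟨hz, hx, hC' p (h.symm _ _ h1.2.2)⟩

end GQ

/-- The same with the hypotheses spelled out. -/
theorem exists_finset_le_27 {X : Type*} {adj : X → X → Prop} (symm : ∀ x y, adj x y → adj y x)
    (irr : ∀ x, ¬ adj x x)
    (third : ∀ x y, adj x y → ∃ z, z ≠ x ∧ z ≠ y ∧ adj x z ∧ adj y z ∧
      ∀ w, w ≠ x → w ≠ y → w ≠ z → (adj w x ∨ adj w y ∨ adj w z) ∧ ¬ (adj w x ∧ adj w y) ∧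
        ¬ (adj w x ∧ adj w z) ∧ ¬ (adj w y ∧ adj w z))
    (nondeg : ∀ x, ∃ y, y ≠ x ∧ ¬ adj x y) (ex : ∃ x y, adj x y) :
    ∃ F : Finset X, F.card ≤ 27 ∧ ∀ x, x ∈ F := by
  refine GQ.card_le (c := adj) ⟨symm, irr, fun x y hxy => ?_, nondeg, ex⟩
  obtain ⟨z, -, -, h1, h2, h3⟩ := third x y hxy
  refine ⟨z, h1, h2, fun p g1 g2 g3 => ?_⟩
  obtain ⟨k1, k2, k3, k4⟩ := h3 p g1 g2 g3
  tauto

theorem finite_card_le_27 {X : Type*} {adj : X → X → Prop} (symm : ∀ x y, adj x y → adj y x)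
    (irr : ∀ x, ¬ adj x x)
    (third : ∀ x y, adj x y → ∃ z, z ≠ x ∧ z ≠ y ∧ adj x z ∧ adj y z ∧
      ∀ w, w ≠ x → w ≠ y → w ≠ z → (adj w x ∨ adj w y ∨ adj w z) ∧ ¬ (adj w x ∧ adj w y) ∧
        ¬ (adj w x ∧ adj w z) ∧ ¬ (adj w y ∧ adj w z))
    (nondeg : ∀ x, ∃ y, y ≠ x ∧ ¬ adj x y) (ex : ∃ x y, adj x y) :
    Finite X ∧ Nat.card X ≤ 27 := by
  obtain ⟨F, hF, hx⟩ := exists_finset_le_27 symm irr third nondeg ex
  have hfin : Fintype X := ⟨F, hx⟩
  refine ⟨inferInstance, ?_⟩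
  rw [Nat.card_eq_fintype_card]
  have : (Finset.univ : Finset X) ⊆ F := fun x _ => hx x
  exact (Finset.card_le_card this).trans hF

/-- The form for a finite set `s` of objects which all satisfy `P`. -/
theorem card_le_27_of_subtype {Y : Type*} {P : Y → Prop} {adj : {y // P y} → {y // P y} → Prop}
    (symm : ∀ x y, adj x y → adj y x) (irr : ∀ x, ¬ adj x x)
    (third : ∀ x y, adj x y → ∃ z, z ≠ x ∧ z ≠ y ∧ adj x z ∧ adj y z ∧
      ∀ w, w ≠ x → w ≠ y → w ≠ z → (adj w x ∨ adj w y ∨ adj w z) ∧ ¬ (adj w x ∧ adj w y) ∧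
        ¬ (adj w x ∧ adj w z) ∧ ¬ (adj w y ∧ adj w z))
    (nondeg : ∀ x, ∃ y, y ≠ x ∧ ¬ adj x y) (ex : ∃ x y, adj x y) (s : Finset Y)
    (hs : ∀ y ∈ s, P y) : s.card ≤ 27 := by
  classical
  obtain ⟨F, hF, hx⟩ := exists_finset_le_27 symm irr third nondeg ex
  have h1 : s ⊆ F.image Subtype.val := fun y hy =>
    Finset.mem_image.2 ⟨⟨y, hs y hy⟩, hx _, rfl⟩
  exact (Finset.card_le_card h1).trans (Finset.card_image_le.trans hF)

end Vale.Agent.P287.R2.H11
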