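import Vale.Agent.P287.R2.H622.Geo

/-!
P287, sharp bound, row N (helper11): a net of conics without common zero contains a smooth conic.
-/

namespace Vale.Agent.P287.R2.H11

open Module Submodule
open Vale.Agent.P287.R2.H248
open Vale.Agent.P287.R2.H622

/-- **A net of conics without common zero has a nonzero discriminant.** -/
lemma net_core {W : Type*} [AddCommGroup W] [Module ℂ W] (p q r s t u : W →ₗ[ℂ] ℂ)
    (hno : ∀ x y z : ℂ, (∀ w, p w * x ^ 2 + 2 * q w * x * y + 2 * r w * x * z + s w * y ^ 2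
      + 2 * t w * y * z + u w * z ^ 2 = 0) → x = 0 ∧ y = 0 ∧ z = 0) :
    ∃ w, p w * (s w * u w - t w ^ 2) - q w * (q w * u w - t w * r w)
      + r w * (q w * t w - s w * r w) ≠ 0 := by
  by_contra hcon
  push Not at hcon
  have c1 : ∀ w w', p w' * (s w * u w - t w ^ 2) + s w' * (p w * u w - r w ^ 2)
      + u w' * (p w * s w - q w ^ 2) + 2 * q w' * (r w * t w - q w * u w)
      + 2 * r w' * (q w * t w - r w * s w) + 2 * t w' * (q w * r w - p w * t w) = 0 := by
    intro w w'
    have h1 := hcon (w + w')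
    have h2 := hcon (w - w')
    have h3 := hcon w
    have h4 := hcon w'
    simp only [map_add, map_sub] at h1 h2
    linear_combination (1 / 2 : ℂ) * h1 - (1 / 2 : ℂ) * h2 - h4
  -- the columns of the adjugate are common zeros
  have k0 : ∀ w, s w * u w - t w ^ 2 = 0 ∧ r w * t w - q w * u w = 0 ∧
      q w * t w - r w * s w = 0 := by
    intro w
    apply hno
    intro w'
    linear_combination (s w * u w - t w ^ 2) * c1 w w'
      - (s w' * u w - 2 * t w' * t w + u w' * s w) * hcon w
  have k1 : ∀ w, r w * t w - q w * u w = 0 ∧ p w * u w - r w ^ 2 = 0 ∧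
      q w * r w - p w * t w = 0 := by
    intro w
    apply hno
    intro w'
    linear_combination (p w * u w - r w ^ 2) * c1 w w'
      - (p w' * u w - 2 * r w' * r w + u w' * p w) * hcon w
  have k2 : ∀ w, q w * t w - r w * s w = 0 ∧ q w * r w - p w * t w = 0 ∧
      p w * s w - q w ^ 2 = 0 := by
    intro w
    apply hno
    intro w'
    linear_combination (p w * s w - q w ^ 2) * c1 w w'
      - (p w' * s w - 2 * q w' * q w + s w' * p w) * hcon w
  -- all forms have rank at most one
  have d1 : ∀ w w', p w * s w' - 2 * q w * q w' + s w * p w' = 0 := by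
    intro w w'
    have h1 := (k2 (w + w')).2.2
    have h2 := (k2 w).2.2
    have h3 := (k2 w').2.2
    simp only [map_add] at h1
    linear_combination h1 - h2 - h3
  have d2 : ∀ w w', s w * u w' - 2 * t w * t w' + u w * s w' = 0 := by
    intro w w'
    have h1 := (k0 (w + w')).1
    have h2 := (k0 w).1
    have h3 := (k0 w').1
    simp only [map_add] at h1
    linear_combination h1 - h2 - h3
  have d3 : ∀ w w', p w * u w' - 2 * r w * r w' + u w * p w' = 0 := by
    intro w w'
    have h1 := (k1 (w + w')).2.1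
    have h2 := (k1 w).2.1
    have h3 := (k1 w').2.1
    simp only [map_add] at h1
    linear_combination h1 - h2 - h3
  have e1 : ∀ w, q w = 0 ∧ - p w = 0 ∧ (0 : ℂ) = 0 := by
    intro w
    apply hno
    intro w'
    linear_combination p w * d1 w w' - p w' * (k2 w).2.2
  have e2 : ∀ w, (0 : ℂ) = 0 ∧ t w = 0 ∧ - s w = 0 := by
    intro w
    apply hno
    intro w'
    linear_combination s w * d2 w w' - s w' * (k0 w).1
  have e3 : ∀ w, - u w = 0 ∧ (0 : ℂ) = 0 ∧ r w = 0 := by
    intro w
    apply hno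
    intro w'
    linear_combination u w * d3 w w' - u w' * (k1 w).2.1
  have := hno 1 0 0 (by
    intro w
    have h1 := neg_eq_zero.mp (e1 w).2.1
    rw [h1]
    ring)
  exact one_ne_zero this.1

variable {V : Type*} [AddCommGroup V] [Module ℂ V] {S : Tri V}

/-- **Row N**: some conic of the net is smooth. -/
theorem row_N (_hV : finrank ℂ V = 6) (hS : S.Smooth) {P : Submodule ℂ V} (hP : Pl S P)
    (e : Fin 3 → V) (he : span ℂ (Set.range e) = P) (k : Fin 3 → V)
    (hk : P ⊔ span ℂ (Set.range k) = ⊤) :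
    ∃ a : Fin 3 → ℂ, (Matrix.of fun i j => S.T (e i) (e j) (∑ l, a l • k l)).det ≠ 0 := by
  have hli : LinearIndependent ℂ e := by
    rw [linearIndependent_iff_card_eq_finrank_span]
    unfold Set.finrank
    rw [he, hP.1, Fintype.card_fin]
  have heP : ∀ i, e i ∈ P := by
    intro i
    rw [← he]
    exact subset_span ⟨i, rfl⟩
  obtain ⟨w, hw⟩ := net_core (S.T (e 0) (e 0)) (S.T (e 0) (e 1)) (S.T (e 0) (e 2))
    (S.T (e 1) (e 1)) (S.T (e 1) (e 2)) (S.T (e 2) (e 2)) (by
      intro x y z h
      have h0 : ∑ i, ![x, y, z] i • e i = 0 := by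
        apply hS
        intro w
        have h1 := h w
        rw [Fin.sum_univ_three]
        simp only [Matrix.cons_val_zero, Matrix.cons_val_one, Matrix.cons_val, map_add, map_smul,
          LinearMap.add_apply, LinearMap.smul_apply, smul_eq_mul]
        rw [S.s12 (e 1) (e 0) w, S.s12 (e 2) (e 0) w, S.s12 (e 2) (e 1) w]
        linear_combination h1
      have h3 := Fintype.linearIndependent_iff.mp hli _ h0
      exact ⟨h3 0, h3 1, h3 2⟩)
  have hwt : w ∈ P ⊔ span ℂ (Set.range k) := by
    rw [hk]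
    exact mem_top
  obtain ⟨p0, hp0, y, hy, rfl⟩ := mem_sup.mp hwt
  obtain ⟨a, ha⟩ := (mem_span_range_iff_exists_fun ℂ).mp hy
  refine ⟨a, ?_⟩
  have hz : ∀ i j, S.T (e i) (e j) (p0 + y) = S.T (e i) (e j) (∑ l, a l • k l) := by
    intro i j
    rw [map_add, hP.2.three (heP i) (heP j) hp0, zero_add, ha]
  rw [hz, hz, hz, hz, hz, hz] at hw
  rw [Matrix.det_fin_three]
  simp only [Matrix.of_apply]
  intro h
  apply hw
  rw [← h, S.s12 (e 1) (e 0), S.s12 (e 2) (e 0), S.s12 (e 2) (e 1)]
  ring

end Vale.Agent.P287.R2.H11
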