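import Vale.Agent.P287.R2.H248.Lines

/-!
P287, part 2 (helper11): two quadratic forms on a three-dimensional space have a common zero.
-/

namespace Vale.Agent.P287.R2.H11

open Module Submodule Vale.Agent.P287.R2.H248

variable {V : Type*} [AddCommGroup V] [Module ℂ V]

lemma bil_add (B : V →ₗ[ℂ] V →ₗ[ℂ] ℂ) (hB : ∀ u v, B u v = B v u) (x y : ℂ) (a b : V) :
    B (x • a + y • b) (x • a + y • b) = x ^ 2 * B a a + 2 * x * y * B a b + y ^ 2 * B b b := by
  simp only [map_add, map_smul, LinearMap.add_apply, LinearMap.smul_apply, smul_eq_mul]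
  rw [hB b a]
  ring

/-- the case in which the first form has a radical -/
lemma zero_of_radical [FiniteDimensional ℂ V] {B C : V →ₗ[ℂ] V →ₗ[ℂ] ℂ}
    (hB : ∀ u v, B u v = B v u) (hC : ∀ u v, C u v = C v u) {P : Submodule ℂ V}
    (hP : finrank ℂ P = 3) {v0 : V} (h0 : v0 ∈ P) (hv0 : v0 ≠ 0) (hr : ∀ w ∈ P, B v0 w = 0) :
    ∃ v ∈ P, v ≠ 0 ∧ B v v = 0 ∧ C v v = 0 := by
  obtain ⟨e1, he1, h1⟩ : ∃ e ∈ P, e ∉ span ℂ {v0} := by
    have h1 : ¬ P ≤ span ℂ {v0} := by
      intro h
      have := Submodule.finrank_mono h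
      rw [hP, finrank_span_singleton hv0] at this
      omega
    obtain ⟨e, he, he2⟩ := Set.not_subset.mp h1
    exact ⟨e, he, he2⟩
  have hf : finrank ℂ ↥(span ℂ {v0} ⊔ span ℂ {e1}) = 2 := by
    rw [finrank_sup_single h1, finrank_span_singleton hv0]
  obtain ⟨e2, he2, h2⟩ : ∃ e ∈ P, e ∉ span ℂ {v0} ⊔ span ℂ {e1} := by
    have h1 : ¬ P ≤ span ℂ {v0} ⊔ span ℂ {e1} := by
      intro h
      have := Submodule.finrank_mono h
      rw [hP, hf] at this
      omega
    obtain ⟨e, he, he2⟩ := Set.not_subset.mp h1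
    exact ⟨e, he, he2⟩
  obtain ⟨s, r, hsr, hq⟩ := quad_zero (B e1 e1) (B e1 e2) (B e2 e2)
  set w0 := s • e1 + r • e2 with hw0
  have hw0P : w0 ∈ P := P.add_mem (P.smul_mem s he1) (P.smul_mem r he2)
  have hBw : B w0 w0 = 0 := by rw [hw0, bil_add B hB, hq]
  have hw : w0 ∉ span ℂ {v0} := by
    intro hm
    by_cases hr0 : r = 0
    · have hs0 : s ≠ 0 := by
        rcases hsr with h | h
        · exact h
        · exact absurd hr0 h
      rw [hw0, hr0, zero_smul, add_zero] at hm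
      exact h1 ((Submodule.smul_mem_iff _ hs0).mp hm)
    · apply h2
      have h3 : r • e2 = w0 - s • e1 := by rw [hw0]; abel
      have h4 : r • e2 ∈ span ℂ {v0} ⊔ span ℂ {e1} := by
        rw [h3]
        exact Submodule.sub_mem _ (mem_sup_left hm)
          (mem_sup_right (Submodule.smul_mem _ _ (mem_span_singleton_self e1)))
      exact (Submodule.smul_mem_iff _ hr0).mp h4
  obtain ⟨x, y, hxy, hq2⟩ := quad_zero (C v0 v0) (C v0 w0) (C w0 w0)
  refine ⟨x • v0 + y • w0, P.add_mem (P.smul_mem x h0) (P.smul_mem y hw0P), ?_, ?_, ?_⟩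
  · intro h3
    by_cases hy : y = 0
    · have hx : x ≠ 0 := by
        rcases hxy with h | h
        · exact h
        · exact absurd hy h
      rw [hy, zero_smul, add_zero] at h3
      rcases smul_eq_zero.mp h3 with h | h
      · exact hx h
      · exact hv0 h
    · apply hw
      have h4 : y • w0 = - (x • v0) := (neg_eq_of_add_eq_zero_right h3).symm
      have h5 : y • w0 ∈ span ℂ {v0} := by
        rw [h4]
        exact Submodule.neg_mem _ (Submodule.smul_mem _ _ (mem_span_singleton_self v0))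
      exact (Submodule.smul_mem_iff _ hy).mp h5
  · rw [bil_add B hB, hr v0 h0, hr w0 hw0P, hBw]
    ring
  · rw [bil_add C hC, hq2]

/-- **Two quadratic forms on a three-dimensional space have a common zero.** -/
theorem common_zero [FiniteDimensional ℂ V] {B C : V →ₗ[ℂ] V →ₗ[ℂ] ℂ}
    (hB : ∀ u v, B u v = B v u) (hC : ∀ u v, C u v = C v u) {P : Submodule ℂ V}
    (hP : finrank ℂ P = 3) : ∃ v ∈ P, v ≠ 0 ∧ B v v = 0 ∧ C v v = 0 := by
  by_cases hex : ∃ v ∈ P, v ≠ 0 ∧ ∀ w ∈ P, C v w = 0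
  · obtain ⟨v0, h0, hv0, hr⟩ := hex
    obtain ⟨v, hv, hv', h1, h2⟩ := zero_of_radical hC hB hP h0 hv0 hr
    exact ⟨v, hv, hv', h2, h1⟩
  · push Not at hex
    let b1 : P →ₗ[ℂ] Dual ℂ P := B.compl₁₂ P.subtype P.subtype
    let b2 : P →ₗ[ℂ] Dual ℂ P := C.compl₁₂ P.subtype P.subtype
    have hinj : Function.Injective b2 := by
      rw [← LinearMap.ker_eq_bot, Submodule.eq_bot_iff]
      rintro ⟨x, hx⟩ hxk
      by_contra hx0
      obtain ⟨w, hw, hne⟩ := hex x hx fun h => hx0 (Subtype.ext h)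
      apply hne
      have h1 := LinearMap.congr_fun (LinearMap.mem_ker.mp hxk) ⟨w, hw⟩
      exact h1
    have hfin : finrank ℂ P = finrank ℂ (Dual ℂ P) := (Subspace.dual_finrank_eq).symm
    let e : P ≃ₗ[ℂ] Dual ℂ P := LinearEquiv.ofInjectiveOfFinrankEq b2 hinj hfin
    have he : ∀ x, e x = b2 x := fun x => rfl
    have hnt : Nontrivial P := by
      apply Module.nontrivial_of_finrank_pos (R := ℂ)
      rw [hP]
      norm_num
    obtain ⟨μ, hμ⟩ := Module.End.exists_eigenvalue (e.symm.toLinearMap.comp b1)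
    obtain ⟨x, hx⟩ := hμ.exists_hasEigenvector
    have hx1 : e.symm (b1 x) = μ • x := hx.apply_eq_smul
    have hx2 : b1 x = μ • b2 x := by
      rw [← he, ← map_smul, ← hx1, LinearEquiv.apply_symm_apply]
    have hx0 : (x : V) ≠ 0 := fun h => hx.2 (Subtype.ext h)
    have hr : ∀ w ∈ P, (B - μ • C) x w = 0 := by
      intro w hw
      have h1 := LinearMap.congr_fun hx2 ⟨w, hw⟩
      have h2 : B x w = μ * C x w := h1
      rw [LinearMap.sub_apply, LinearMap.sub_apply, LinearMap.smul_apply, LinearMap.smul_apply,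
        smul_eq_mul, h2, sub_self]
    have hsym : ∀ u v, (B - μ • C) u v = (B - μ • C) v u := by
      intro u v
      simp only [LinearMap.sub_apply, LinearMap.smul_apply]
      rw [hB u v, hC u v]
    obtain ⟨v, hv, hv', h1, h2⟩ := zero_of_radical hsym hC hP x.2 hx0 hr
    refine ⟨v, hv, hv', ?_, h2⟩
    rw [LinearMap.sub_apply, LinearMap.sub_apply, LinearMap.smul_apply, LinearMap.smul_apply,
      smul_eq_mul, h2, mul_zero, sub_zero] at h1
    exact h1

end Vale.Agent.P287.R2.H11
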