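import Vale.Agent.P287.R2.H992.Poly

/-!
P287, sharp bound, row K (helper11): a chart that contains finitely many directions.
-/

namespace Vale.Agent.P287.R2.H11

open Module Submodule
open Vale.Agent.P287.R2.H248
open Vale.Agent.P287.R2.H992

variable {V : Type*} [AddCommGroup V] [Module ℂ V] [FiniteDimensional ℂ V]

/-- **Row K**: a chart that contains finitely many directions. -/
theorem row_K (hV : finrank ℂ V = 6) {P : Submodule ℂ V} (hP : finrank ℂ P = 3) {N : ℕ}
    (w : Fin N → V) (hw : ∀ i, w i ∉ P) :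
    ∃ k : Fin 3 → V, P ⊔ span ℂ (Set.range k) = ⊤ ∧
      ∀ i, ∃ x : Fin 2 → ℂ, P ⊔ span ℂ {w i} = P ⊔ span ℂ {kk k x} := by
  obtain ⟨w0, hw0⟩ : ∃ w0, w0 ∉ P := by
    by_contra hcon
    push Not at hcon
    have : P = ⊤ := (Submodule.eq_top_iff').mpr hcon
    rw [this, finrank_top, hV] at hP
    omega
  -- a functional which vanishes on `P` and on no direction
  obtain ⟨φ, hφP, hφ0, hφ⟩ : ∃ φ : V →ₗ[ℂ] ℂ, (∀ v ∈ P, φ v = 0) ∧ φ w0 ≠ 0 ∧
      ∀ i, φ (w i) ≠ 0 := by
    obtain ⟨f, hf⟩ := Module.exists_dual_forall_apply_ne_zero (K := ℂ) (M := V ⧸ P)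
      (fun i : Option (Fin N) => P.mkQ (i.elim w0 w)) (by
        intro i
        rw [Submodule.mkQ_apply, Ne, Submodule.Quotient.mk_eq_zero]
        cases i
        · exact hw0
        · exact hw _)
    refine ⟨f.comp P.mkQ, ?_, hf none, fun i => hf (some i)⟩
    intro v hv
    rw [LinearMap.comp_apply, Submodule.mkQ_apply, (Submodule.Quotient.mk_eq_zero P).mpr hv,
      map_zero]
  obtain ⟨C, hC⟩ := Submodule.exists_isCompl P
  have hC3 : finrank ℂ C = 3 := by
    have := Submodule.finrank_add_eq_of_isCompl hC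
    omega
  have hdec : ∀ v : V, ∃ p ∈ P, ∃ c ∈ C, v = p + c := by
    intro v
    have hv : v ∈ P ⊔ C := by
      rw [hC.sup_eq_top]
      exact mem_top
    obtain ⟨p, hp, c, hc, h⟩ := mem_sup.mp hv
    exact ⟨p, hp, c, hc, h.symm⟩
  obtain ⟨p0, hp0, c0, hc0, hw0e⟩ := hdec w0
  have hφc : φ c0 ≠ 0 := by
    intro h
    apply hφ0
    rw [hw0e, map_add, hφP p0 hp0, h, add_zero]
  set k0 : V := (φ c0)⁻¹ • c0 with hk0
  have hk0C : k0 ∈ C := C.smul_mem _ hc0
  have hφk : φ k0 = 1 := by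
    rw [hk0, map_smul, smul_eq_mul, inv_mul_cancel₀ hφc]
  set ψ : C →ₗ[ℂ] ℂ := φ.comp C.subtype with hψ
  have hker : finrank ℂ (LinearMap.ker ψ) = 2 := by
    have h1 := LinearMap.finrank_range_add_finrank_ker ψ
    have h2 : finrank ℂ (LinearMap.range ψ) = 1 := by
      have : ψ ≠ 0 := by
        intro h
        have h3 := LinearMap.congr_fun h ⟨k0, hk0C⟩
        have h4 : φ k0 = 0 := h3
        rw [hφk] at h4
        exact one_ne_zero h4
      rw [LinearMap.range_eq_top.mpr (LinearMap.surjective this), finrank_top, finrank_self]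
    rw [h2, hC3] at h1
    omega
  let b := Module.finBasisOfFinrankEq ℂ (LinearMap.ker ψ) hker
  set k1 : V := ((b 0 : C) : V) with hk1
  set k2 : V := ((b 1 : C) : V) with hk2
  have hexp : ∀ v : V, ∃ p ∈ P, ∃ y z : ℂ, v = p + φ v • k0 + y • k1 + z • k2 := by
    intro v
    obtain ⟨p, hp, c, hc, hv⟩ := hdec v
    have hφv : φ v = φ c := by
      rw [hv, map_add, hφP p hp, zero_add]
    have hmem : (⟨c, hc⟩ - φ v • ⟨k0, hk0C⟩ : C) ∈ LinearMap.ker ψ := by
      rw [LinearMap.mem_ker, map_sub, map_smul]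
      show φ c - φ v • φ k0 = 0
      rw [hφk, hφv, smul_eq_mul, mul_one, sub_self]
    have h1 := b.sum_repr ⟨_, hmem⟩
    rw [Fin.sum_univ_two] at h1
    have h2 := congr_arg (fun u : LinearMap.ker ψ => ((u : C) : V)) h1
    simp only [Submodule.coe_add, Submodule.coe_smul, AddSubgroupClass.coe_sub] at h2
    refine ⟨p, hp, b.repr ⟨_, hmem⟩ 0, b.repr ⟨_, hmem⟩ 1, ?_⟩
    calc v = p + c := hv
      _ = p + φ v • k0 + (c - φ v • k0) := by abel
      _ = _ := by rw [← h2, add_assoc (p + φ v • k0)]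
  refine ⟨![k0, k1, k2], ?_, ?_⟩
  · rw [Submodule.eq_top_iff']
    intro v
    obtain ⟨p, hp, y, z, hv⟩ := hexp v
    rw [hv]
    have hm : ∀ i, ![k0, k1, k2] i ∈ span ℂ (Set.range ![k0, k1, k2]) :=
      fun i => subset_span ⟨i, rfl⟩
    refine add_mem (add_mem (add_mem (mem_sup_left hp) ?_) ?_) ?_
    · exact mem_sup_right (smul_mem _ _ (hm 0))
    · exact mem_sup_right (smul_mem _ _ (hm 1))
    · exact mem_sup_right (smul_mem _ _ (hm 2))
  · intro i
    obtain ⟨p, hp, y, z, hv⟩ := hexp (w i)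
    have hne := hφ i
    refine ⟨![y / φ (w i), z / φ (w i)], ?_⟩
    have hkk : w i = p + φ (w i) • kk ![k0, k1, k2] ![y / φ (w i), z / φ (w i)] := by
      conv_lhs => rw [hv]
      unfold kk
      rw [Fin.sum_univ_three]
      simp only [kv, Matrix.cons_val_zero, Matrix.cons_val_one, Matrix.cons_val, one_smul,
        smul_add, smul_smul]
      rw [mul_div_cancel₀ _ hne, mul_div_cancel₀ _ hne]
      abel
    generalize kk ![k0, k1, k2] ![y / φ (w i), z / φ (w i)] = u at hkk ⊢
    apply le_antisymm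
    · refine sup_le le_sup_left ?_
      rw [span_singleton_le_iff_mem]
      have h4 : p + φ (w i) • u ∈ P ⊔ span ℂ {u} := by
        exact add_mem (mem_sup_left hp) (mem_sup_right (smul_mem _ _ (mem_span_singleton_self _)))
      rw [← hkk] at h4
      exact h4
    · refine sup_le le_sup_left ?_
      rw [span_singleton_le_iff_mem]
      have h3 : u = (φ (w i))⁻¹ • (w i - p) := by
        rw [eq_inv_smul_iff₀ hne]
        rw [eq_sub_iff_add_eq, add_comm]
        exact hkk.symm
      rw [h3]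
      exact smul_mem _ _ (sub_mem (mem_sup_right (mem_span_singleton_self _)) (mem_sup_left hp))

end Vale.Agent.P287.R2.H11
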