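import Vale.Agent.P287.R2.H992.Eck28

/-!
P287, sharpness of 28, row S3 (helper11): twenty-seven planes in one cubic fourfold.
-/

namespace Vale.Agent.P287.R2.H11

open Module Submodule MvPolynomial
open Vale.Agent.P287.R2.H248

/-- the partner of `0` in the pairing `t` -/
def jj : Fin 3 → Fin 6 := ![1, 2, 3]

/-- the first element of the other pair -/
def nn : Fin 3 → Fin 6 := ![2, 1, 1]

/-- the second element of the other pair -/
def mm : Fin 3 → Fin 6 := ![3, 3, 2]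

/-- the three linear forms which define the plane -/
noncomputable def TT (t : Fin 3) (α β : ℂ) : A6 →ₗ[ℂ] (Fin 3 → ℂ) :=
  LinearMap.pi ![LinearMap.proj 4, LinearMap.proj (jj t) + α • LinearMap.proj 0,
    LinearMap.proj (mm t) + β • LinearMap.proj (nn t)]

lemma mem_TT (t : Fin 3) (α β : ℂ) (x : A6) : x ∈ LinearMap.ker (TT t α β) ↔
    x 4 = 0 ∧ x (jj t) + α * x 0 = 0 ∧ x (mm t) + β * x (nn t) = 0 := by
  rw [LinearMap.mem_ker, funext_iff, Fin.forall_fin_succ, Fin.forall_fin_two]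
  simp [TT]

lemma finrank_TT (t : Fin 3) (α β : ℂ) : finrank ℂ (LinearMap.ker (TT t α β)) = 3 := by
  have h1 := LinearMap.finrank_range_add_finrank_ker (TT t α β)
  have h2 : LinearMap.range (TT t α β) = ⊤ := by
    rw [LinearMap.range_eq_top]
    intro c
    fin_cases t
    · refine ⟨![0, c 1, 0, c 2, c 0, 0], ?_⟩
      funext i
      fin_cases i <;> simp [TT, jj, nn, mm]
    · refine ⟨![0, 0, c 1, c 2, c 0, 0], ?_⟩
      funext i
      fin_cases i <;> simp [TT, jj, nn, mm]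
    · refine ⟨![0, 0, c 2, c 1, c 0, 0], ?_⟩
      funext i
      fin_cases i <;> simp [TT, jj, nn, mm]
  rw [h2, finrank_top, Module.finrank_fin_fun, Module.finrank_fin_fun] at h1
  omega

/-- the cubic -/
noncomputable def G0 : MvPolynomial (Fin 6) ℂ :=
  X 0 ^ 3 + X 1 ^ 3 + X 2 ^ 3 + X 3 ^ 3 + X 4 * X 5 ^ 2 + X 4 ^ 2 * (X 1 + C 2 * X 2 + C 3 * X 3)

lemma eval_G0 (x : A6) : eval x G0 = x 0 ^ 3 + x 1 ^ 3 + x 2 ^ 3 + x 3 ^ 3 + x 4 * x 5 ^ 2
    + x 4 ^ 2 * (x 1 + 2 * x 2 + 3 * x 3) := by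
  simp [G0]

lemma isPlane_TT (t : Fin 3) {α β : ℂ} (hα : α ^ 3 = 1) (hβ : β ^ 3 = 1) :
    IsPlaneIn G0 (LinearMap.ker (TT t α β)) := by
  refine ⟨finrank_TT t α β, ?_⟩
  intro x hx
  rw [mem_TT] at hx
  obtain ⟨h4, h1, h2⟩ := hx
  rw [eval_G0]
  fin_cases t
  · have e1 : x 1 = - α * x 0 := by
      have : x 1 + α * x 0 = 0 := h1
      linear_combination this
    have e3 : x 3 = - β * x 2 := by
      have : x 3 + β * x 2 = 0 := h2
      linear_combination this
    rw [h4, e1, e3]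
    linear_combination (- x 0 ^ 3) * hα - x 2 ^ 3 * hβ
  · have e1 : x 2 = - α * x 0 := by
      have : x 2 + α * x 0 = 0 := h1
      linear_combination this
    have e3 : x 3 = - β * x 1 := by
      have : x 3 + β * x 1 = 0 := h2
      linear_combination this
    rw [h4, e1, e3]
    linear_combination (- x 0 ^ 3) * hα - x 1 ^ 3 * hβ
  · have e1 : x 3 = - α * x 0 := by
      have : x 3 + α * x 0 = 0 := h1
      linear_combination this
    have e3 : x 2 = - β * x 1 := by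
      have : x 2 + β * x 1 = 0 := h2
      linear_combination this
    rw [h4, e1, e3]
    linear_combination (- x 0 ^ 3) * hα - x 1 ^ 3 * hβ

lemma inj_TT {t t' : Fin 3} {α β α' β' : ℂ} (hα' : α' ≠ 0)
    (h : LinearMap.ker (TT t α β) = LinearMap.ker (TT t' α' β')) :
    t = t' ∧ α = α' ∧ β = β' := by
  let v1 : A6 := fun i => if i = 0 then 1 else if i = jj t then - α else 0
  have hv1 : v1 ∈ LinearMap.ker (TT t α β) := by
    rw [mem_TT]
    fin_cases t <;> simp [v1, jj, nn, mm]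
  rw [h, mem_TT] at hv1
  have k1 := hv1.2.1
  have htt : t = t' ∧ α = α' := by
    fin_cases t <;> fin_cases t' <;> simp [v1, jj] at k1 ⊢ <;>
      first
        | exact absurd k1 hα'
        | linear_combination -k1
  obtain ⟨rfl, rfl⟩ := htt
  refine ⟨rfl, rfl, ?_⟩
  let v2 : A6 := fun i => if i = nn t then 1 else if i = mm t then - β else 0
  have hv2 : v2 ∈ LinearMap.ker (TT t α β) := by
    rw [mem_TT]
    fin_cases t <;> simp [v2, jj, nn, mm]
  rw [h, mem_TT] at hv2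
  have k2 := hv2.2.2
  fin_cases t <;> simp [v2, nn, mm] at k2 <;> linear_combination -k2

/-- **Row S3**: there are 27 planes. -/
theorem row_S3 : ∃ s : Finset (Submodule ℂ A6), s.card = 27 ∧ ∀ P ∈ s, IsPlaneIn G0 P := by
  classical
  obtain ⟨ζ, hζ⟩ : ∃ ζ : ℂ, IsPrimitiveRoot ζ 3 :=
    ⟨_, Complex.isPrimitiveRoot_exp 3 (by norm_num)⟩
  have h3 : ∀ a : Fin 3, (ζ ^ (a : ℕ)) ^ 3 = 1 := by
    intro a
    rw [← pow_mul, mul_comm, pow_mul, hζ.pow_eq_one, one_pow]
  let Q : Fin 3 × Fin 3 × Fin 3 → Submodule ℂ A6 := fun u =>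
    LinearMap.ker (TT u.1 (ζ ^ (u.2.1 : ℕ)) (ζ ^ (u.2.2 : ℕ)))
  have hinj : Function.Injective Q := by
    rintro ⟨t, a, b⟩ ⟨t', a', b'⟩ h
    obtain ⟨h1, h2, h3⟩ := inj_TT (pow_ne_zero _ (hζ.ne_zero (by norm_num))) h
    have e1 := Fin.ext (hζ.pow_inj a.2 a'.2 h2)
    have e2 := Fin.ext (hζ.pow_inj b.2 b'.2 h3)
    simp only at h1
    rw [h1, e1, e2]
  refine ⟨Finset.univ.image Q, ?_, ?_⟩
  · rw [Finset.card_image_of_injective _ hinj]
    simp
  · intro P hP
    obtain ⟨u, -, rfl⟩ := Finset.mem_image.mp hP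
    exact isPlane_TT _ (h3 _) (h3 _)

end Vale.Agent.P287.R2.H11
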