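import Vale.Agent.P287.R2.H11.Seven

/-!
P287, sharpness of 28, row S1 (helper11, second copy): the cubic fourfold of row S3 is smooth.
-/

namespace Vale.Agent.P287.R2.H11

open Module Submodule MvPolynomial
open Vale.Agent.P287.R2.H248

lemma G0_homog : G0.IsHomogeneous 3 := by
  have hX : ∀ i : Fin 6, (X i : MvPolynomial (Fin 6) ℂ).IsHomogeneous 1 := fun i => isHomogeneous_X ℂ i
  have h3 : ∀ i : Fin 6, (X i ^ 3 : MvPolynomial (Fin 6) ℂ).IsHomogeneous 3 := by
    intro i
    have := (hX i).pow 3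
    simpa using this
  have h2 : ∀ i : Fin 6, (X i ^ 2 : MvPolynomial (Fin 6) ℂ).IsHomogeneous 2 := by
    intro i
    have := (hX i).pow 2
    simpa using this
  have hC : ∀ (c : ℂ) (i : Fin 6), (C c * X i : MvPolynomial (Fin 6) ℂ).IsHomogeneous 1 := by
    intro c i
    have := (isHomogeneous_C (Fin 6) c).mul (hX i)
    simpa using this
  unfold G0
  refine IsHomogeneous.add (IsHomogeneous.add (IsHomogeneous.add (IsHomogeneous.add
    (IsHomogeneous.add (h3 0) (h3 1)) (h3 2)) (h3 3)) ?_) ?_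
  · have := (hX 4).mul (h2 5)
    simpa using this
  · have := (h2 4).mul (((hX 1).add (hC 2 2)).add (hC 3 3))
    simpa using this

lemma G0_smooth (v : A6) (h : ∀ i, eval v (pderiv i G0) = 0) : v = 0 := by
  have h0 := h 0
  have h1 := h 1
  have h2 := h 2
  have h3 := h 3
  have h4 := h 4
  have h5 := h 5
  simp [G0, pderiv_X] at h0 h1 h2 h3 h4 h5
  have h40 : v 4 = 0 := by
    by_contra hne
    have h50 : v 5 = 0 := h5.resolve_left hne
    rw [h50] at h4
    have h6 : v 1 + 2 * v 2 + 3 * v 3 = 0 := by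
      have : (2 * v 4) * (v 1 + 2 * v 2 + 3 * v 3) = 0 := by linear_combination h4
      exact (mul_eq_zero.mp this).resolve_left (mul_ne_zero two_ne_zero hne)
    -- `A = x 1`, `B = 2 * x 2`, `3 * x 3 = - (A + B)`
    have h7 : v 1 * (2 * v 2) = - 3 * v 4 ^ 2 := by
      linear_combination (1 / 2 : ℂ) * (v 1 + 2 * v 2 - 3 * v 3) * h6 - (1 / 6 : ℂ) * h1
        - (2 / 3 : ℂ) * h2 + (3 / 2 : ℂ) * h3
    have h8 : v 4 ^ 4 = 0 := by
      have h9 : (v 1 * (2 * v 2)) ^ 2 = (8 / 9 : ℂ) * v 4 ^ 4 := by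
        linear_combination (4 / 3 : ℂ) * v 2 ^ 2 * h1 - (4 / 9 : ℂ) * v 4 ^ 2 * h2
      rw [h7] at h9
      linear_combination (9 / 73 : ℂ) * h9
    exact hne ((pow_eq_zero_iff (by norm_num)).mp h8)
  rw [h40] at h1 h2 h3 h4
  have sq : ∀ z : ℂ, 3 * z ^ 2 = 0 → z = 0 := by
    intro z hz
    have := (mul_eq_zero.mp hz).resolve_left three_ne_zero
    exact (pow_eq_zero_iff two_ne_zero).mp this
  have e1 := sq _ (by linear_combination h1)
  have e2 := sq _ (by linear_combination h2)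
  have e3 := sq _ (by linear_combination h3)
  have e5 : v 5 = 0 := by
    have : v 5 ^ 2 = 0 := by linear_combination h4
    exact (pow_eq_zero_iff two_ne_zero).mp this
  funext i
  fin_cases i
  · exact h0
  · exact e1
  · exact e2
  · exact e3
  · exact h40
  · exact e5

/-- **Row S1.** -/
theorem row_S1 : IsCubicFourfold G0 := ⟨G0_homog, G0_smooth⟩
end Vale.Agent.P287.R2.H11
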