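import Vale.Agent.P287.R2.H11.QQ

/-!
P287, part 2 (helper11): three planes in a solid.
-/

namespace Vale.Agent.P287.R2.H11

open Module Submodule Vale.Agent.P287.R2.H248

variable {V : Type*} [AddCommGroup V] [Module ℂ V] {S : Tri V}

/-- a plane is spanned by a line in it and a further point -/
lemma plane_eq [FiniteDimensional ℂ V] {P M : Submodule ℂ V} (hP : finrank ℂ P = 3)
    (hM : finrank ℂ M = 2) (hMP : M ≤ P) {a : V} (ha : a ∈ P) (ha' : a ∉ M) :
    M ⊔ span ℂ {a} = P := by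
  apply Submodule.eq_of_le_of_finrank_eq
  · exact sup_le hMP (by rw [span_le]; exact Set.singleton_subset_iff.mpr ha)
  · rw [finrank_sup_single ha', hM, hP]

lemma mem_plane [FiniteDimensional ℂ V] {P M : Submodule ℂ V} (hP : finrank ℂ P = 3)
    (hM : finrank ℂ M = 2) (hMP : M ≤ P) {a : V} (ha : a ∈ P) (ha' : a ∉ M) {v : V}
    (hv : v ∈ P) : ∃ m ∈ M, ∃ s : ℂ, v = m + s • a := by
  rw [← plane_eq hP hM hMP ha ha'] at hv
  obtain ⟨m, hm, z, hz, rfl⟩ := mem_sup.mp hv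
  obtain ⟨s, rfl⟩ := mem_span_singleton.mp hz
  exact ⟨m, hm, s, rfl⟩

lemma finrank_solid [FiniteDimensional ℂ V] {P Q : Submodule ℂ V} (hP : finrank ℂ P = 3)
    (hQ : finrank ℂ Q = 3) (hM : finrank ℂ ↥(P ⊓ Q) = 2) : finrank ℂ ↥(P ⊔ Q) = 4 := by
  have := Submodule.finrank_sup_add_finrank_inf_eq P Q
  omega

/-- (S) two planes of a smooth cubic fourfold which meet in a line: the third plane of the solid is
different from the first one. -/
theorem star [FiniteDimensional ℂ V] (hS : S.Smooth) (hV : finrank ℂ V = 6)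
    {P Q : Submodule ℂ V} (hP : finrank ℂ P = 3) (hQ : finrank ℂ Q = 3) (hIP : S.Iso P)
    (hIQ : S.Iso Q) (hM : finrank ℂ ↥(P ⊓ Q) = 2) {a b : V} (ha : a ∈ P) (ha' : a ∉ Q)
    (hb : b ∈ Q) (hb' : b ∉ P) (h1 : S.T a a b = 0) (h2 : ∀ m ∈ P ⊓ Q, S.T a b m = 0) :
    False := by
  have haM : a ∉ P ⊓ Q := fun h => ha' h.2
  have hPb : P ⊔ span ℂ {b} = P ⊔ Q := by
    apply Submodule.eq_of_le_of_finrank_eq
    · exact sup_le le_sup_left
        (by rw [span_le]; exact Set.singleton_subset_iff.mpr (mem_sup_right hb))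
    · rw [finrank_sup_single hb', hP, finrank_solid hP hQ hM]
  obtain ⟨g1, hg1⟩ : ∃ g, g ∉ P ⊔ Q := by
    apply exists_not_mem
    rw [finrank_solid hP hQ hM, hV]
    norm_num
  have hf1 : finrank ℂ ↥((P ⊔ Q) ⊔ span ℂ {g1}) = 5 := by
    rw [finrank_sup_single hg1, finrank_solid hP hQ hM]
  obtain ⟨g2, hg2⟩ : ∃ g, g ∉ (P ⊔ Q) ⊔ span ℂ {g1} := by
    apply exists_not_mem
    rw [hf1, hV]
    norm_num
  have htop : ((P ⊔ Q) ⊔ span ℂ {g1}) ⊔ span ℂ {g2} = ⊤ := by
    apply Submodule.eq_top_of_finrank_eq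
    rw [finrank_sup_single hg2, hf1, hV]
  obtain ⟨v, hv, hv0, h3, h4⟩ := common_zero (B := S.T g1) (C := S.T g2)
    (fun u w => S.s23 g1 u w) (fun u w => S.s23 g2 u w) hP
  apply hv0
  apply hS
  obtain ⟨m, hm, s, rfl⟩ := mem_plane hP hM inf_le_left ha haM hv
  have hvb : S.T (m + s • a) (m + s • a) b = 0 := by
    have h5 := S.sq_add 1 s m a b
    rw [one_smul] at h5
    rw [h5, hIQ.two hm.2 hb, h1, S.cyc m a b, h2 m hm]
    ring
  intro w
  have hw : w ∈ ((P ⊔ Q) ⊔ span ℂ {g1}) ⊔ span ℂ {g2} := by rw [htop]; trivial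
  rw [← hPb] at hw
  obtain ⟨w1, hw1, z2, hz2, rfl⟩ := mem_sup.mp hw
  obtain ⟨w2, hw2, z1, hz1, rfl⟩ := mem_sup.mp hw1
  obtain ⟨p, hp, z0, hz0, rfl⟩ := mem_sup.mp hw2
  obtain ⟨c2, rfl⟩ := mem_span_singleton.mp hz2
  obtain ⟨c1, rfl⟩ := mem_span_singleton.mp hz1
  obtain ⟨c0, rfl⟩ := mem_span_singleton.mp hz0
  have h5 : S.T (m + s • a) (m + s • a) g1 = 0 := by rw [← S.cyc g1]; exact h3
  have h6 : S.T (m + s • a) (m + s • a) g2 = 0 := by rw [← S.cyc g2]; exact h4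
  have h7 := hIP.two hv hp
  generalize m + s • a = v at h5 h6 h7 hvb
  rw [map_add, map_add, map_add, map_smul, map_smul, map_smul, h7, hvb, h5, h6]
  simp

/-- (E) a plane outside the solid of two planes cannot meet both in lines -/
theorem excl [FiniteDimensional ℂ V] (hS : S.Smooth) (hV : finrank ℂ V = 6)
    {P Q A : Submodule ℂ V} (hP : finrank ℂ P = 3) (hQ : finrank ℂ Q = 3) (hA : finrank ℂ A = 3)
    (hIP : S.Iso P) (hIQ : S.Iso Q) (hIA : S.Iso A) (hM : finrank ℂ ↥(P ⊓ Q) = 2)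
    (hL : finrank ℂ ↥(A ⊓ (P ⊔ Q)) = 2) (h1 : finrank ℂ ↥(A ⊓ P) = 2)
    (h2 : finrank ℂ ↥(A ⊓ Q) = 2) : False := by
  have e1 : A ⊓ P = A ⊓ (P ⊔ Q) := by
    apply Submodule.eq_of_le_of_finrank_eq
    · exact inf_le_inf_left A le_sup_left
    · rw [h1, hL]
  have e2 : A ⊓ Q = A ⊓ (P ⊔ Q) := by
    apply Submodule.eq_of_le_of_finrank_eq
    · exact inf_le_inf_left A le_sup_right
    · rw [h2, hL]
  have hN := Submodule.finrank_sup_add_finrank_inf_eq A (P ⊔ Q)
  rw [hL, hA, finrank_solid hP hQ hM] at hN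
  have hN5 : finrank ℂ ↥(A ⊔ (P ⊔ Q)) = 5 := by omega
  obtain ⟨g, hg⟩ : ∃ g, g ∉ A ⊔ (P ⊔ Q) := by
    apply exists_not_mem
    rw [hN5, hV]
    norm_num
  have htop : (A ⊔ (P ⊔ Q)) ⊔ span ℂ {g} = ⊤ := by
    apply Submodule.eq_top_of_finrank_eq
    rw [finrank_sup_single hg, hN5, hV]
  -- a basis of the common line
  obtain ⟨e, heL, he0⟩ : ∃ e ∈ A ⊓ P, e ≠ 0 := by
    have : A ⊓ P ≠ ⊥ := by
      intro h
      rw [h, finrank_bot] at h1
      omega
    exact (A ⊓ P).ne_bot_iff.mp this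
  obtain ⟨f, hfL, hf, -⟩ := exists_pair h1 heL he0
  obtain ⟨s, r, hsr, hq⟩ := quad_zero (S.T e e g) (S.T e f g) (S.T f f g)
  have hvL : s • e + r • f ∈ A ⊓ P :=
    (A ⊓ P).add_mem ((A ⊓ P).smul_mem s heL) ((A ⊓ P).smul_mem r hfL)
  have hvQ : s • e + r • f ∈ A ⊓ Q := by
    rw [e2, ← e1]
    exact hvL
  have hv0 : s • e + r • f ≠ 0 := by
    intro h3
    by_cases hr : r = 0
    · have hs : s ≠ 0 := by
        rcases hsr with h | h
        · exact h
        · exact absurd hr h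
      rw [hr, zero_smul, add_zero] at h3
      rcases smul_eq_zero.mp h3 with h | h
      · exact hs h
      · exact he0 h
    · apply hf
      have h4 : r • f = - (s • e) := (neg_eq_of_add_eq_zero_right h3).symm
      have h5 : r • f ∈ span ℂ {e} := by
        rw [h4]
        exact Submodule.neg_mem _ (Submodule.smul_mem _ _ (mem_span_singleton_self e))
      exact (Submodule.smul_mem_iff _ hr).mp h5
  apply hv0
  apply hS
  intro w
  have hw : w ∈ (A ⊔ (P ⊔ Q)) ⊔ span ℂ {g} := by rw [htop]; trivial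
  obtain ⟨w1, hw1, z, hz, rfl⟩ := mem_sup.mp hw
  obtain ⟨x, hx, w2, hw2, rfl⟩ := mem_sup.mp hw1
  obtain ⟨p, hp, q, hq', rfl⟩ := mem_sup.mp hw2
  obtain ⟨c, rfl⟩ := mem_span_singleton.mp hz
  have k1 := hIA.two hvL.1 hx
  have k2 := hIP.two hvL.2 hp
  have k3 := hIQ.two hvQ.2 hq'
  have k4 : S.T (s • e + r • f) (s • e + r • f) g = 0 := by rw [S.sq_add, hq]
  generalize s • e + r • f = v at k1 k2 k3 k4
  rw [map_add, map_add, map_add, map_smul, k1, k2, k3, k4]
  simp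

/-- (U) a linear subspace of a union of three is in one of them -/
theorem union3 {P Q R L : Submodule ℂ V} (h : ∀ v ∈ L, v ∈ P ∨ v ∈ Q ∨ v ∈ R) :
    L ≤ P ∨ L ≤ Q ∨ L ≤ R := by
  obtain ⟨i, hi⟩ := Subspace.exists_eq_top_of_iUnion_eq_univ
    (p := ![P.comap L.subtype, Q.comap L.subtype, R.comap L.subtype]) (by
      rw [Set.eq_univ_iff_forall]
      rintro ⟨v, hv⟩
      rw [Set.mem_iUnion]
      rcases h v hv with h1 | h1 | h1
      · exact ⟨0, h1⟩
      · exact ⟨1, h1⟩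
      · exact ⟨2, h1⟩)
  have key : ∀ U : Submodule ℂ V, U.comap L.subtype = ⊤ → L ≤ U := by
    intro U hU v hv
    have : (⟨v, hv⟩ : L) ∈ U.comap L.subtype := by
      rw [hU]
      trivial
    exact this
  fin_cases i
  · exact Or.inl (key P hi)
  · exact Or.inr (Or.inl (key Q hi))
  · exact Or.inr (Or.inr (key R hi))

/-- (R) the third plane -/
theorem exists_third [FiniteDimensional ℂ V] (hS : S.Smooth) (hV : finrank ℂ V = 6)
    {P Q : Submodule ℂ V} (hP : finrank ℂ P = 3) (hQ : finrank ℂ Q = 3) (hIP : S.Iso P)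
    (hIQ : S.Iso Q) (hM : finrank ℂ ↥(P ⊓ Q) = 2) :
    ∃ R : Submodule ℂ V, finrank ℂ R = 3 ∧ S.Iso R ∧ R ≤ P ⊔ Q ∧ R ≠ P ∧ R ≠ Q ∧
      ∀ v ∈ P ⊔ Q, S.T v v v = 0 → v ∈ P ∨ v ∈ Q ∨ v ∈ R := by
  obtain ⟨a, ha, ha'⟩ : ∃ a ∈ P, a ∉ Q := by
    have h1 : ¬ P ≤ Q := by
      intro h
      rw [inf_eq_left.mpr h] at hM
      omega
    exact Set.not_subset.mp h1
  obtain ⟨b, hb, hb'⟩ : ∃ b ∈ Q, b ∉ P := by
    have h1 : ¬ Q ≤ P := by
      intro h
      rw [inf_eq_right.mpr h] at hM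
      omega
    exact Set.not_subset.mp h1
  obtain ⟨f, hfa, hfQ⟩ := Submodule.exists_dual_map_eq_bot_of_notMem ha' inferInstance
  obtain ⟨g, hgb, hgP⟩ := Submodule.exists_dual_map_eq_bot_of_notMem hb' inferInstance
  have hf0 : ∀ q ∈ Q, f q = 0 := fun q hq => by
    have : f q ∈ Q.map f := mem_map_of_mem hq
    rw [hfQ] at this
    exact this
  have hg0 : ∀ p ∈ P, g p = 0 := fun p hp => by
    have : g p ∈ P.map g := mem_map_of_mem hp
    rw [hgP] at this
    exact this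
  set ρ : V →ₗ[ℂ] ℂ := (2 : ℂ) • S.T a b - (S.T a a b / f a) • f - (S.T a b b / g b) • g with hρ
  have hρv : ∀ v, ρ v = 2 * S.T a b v - S.T a a b / f a * f v - S.T a b b / g b * g v := by
    intro v
    simp only [hρ, LinearMap.sub_apply, LinearMap.smul_apply, smul_eq_mul]
  -- coordinates on the solid
  have hco : ∀ v ∈ P ⊔ Q, ∃ m ∈ P ⊓ Q, ∃ s r : ℂ, v = m + s • a + r • b := by
    intro v hv
    obtain ⟨p, hp, q, hq, rfl⟩ := mem_sup.mp hv
    obtain ⟨m1, hm1, s, rfl⟩ := mem_plane hP hM inf_le_left ha (fun h => ha' h.2) hp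
    obtain ⟨m2, hm2, r, rfl⟩ := mem_plane hQ hM inf_le_right hb (fun h => hb' h.1) hq
    exact ⟨m1 + m2, (P ⊓ Q).add_mem hm1 hm2, s, r, by abel⟩
  have hab : ∀ m ∈ P ⊓ Q, ∀ s r : ℂ, ρ (m + s • a + r • b) =
      2 * S.T a b m + s * S.T a a b + r * S.T a b b := by
    intro m hm s r
    rw [hρv]
    simp only [map_add, map_smul, smul_eq_mul]
    rw [hf0 m hm.2, hf0 b hb, hg0 m hm.1, hg0 a ha, S.s23 a b a]
    field_simp
    ring
  have hcube : ∀ m ∈ P ⊓ Q, ∀ s r : ℂ, S.T (m + s • a + r • b) (m + s • a + r • b)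
      (m + s • a + r • b) = 3 * s * r * ρ (m + s • a + r • b) := by
    intro m hm s r
    rw [hab m hm s r]
    have t1 : S.T m m m = 0 := hIP m hm.1
    have t2 : S.T a a a = 0 := hIP a ha
    have t3 : S.T b b b = 0 := hIQ b hb
    have t4 : S.T m m a = 0 := hIP.two hm.1 ha
    have t5 : S.T a a m = 0 := hIP.two ha hm.1
    have t6 : S.T m m b = 0 := hIQ.two hm.2 hb
    have t7 : S.T b b m = 0 := hIQ.two hb hm.2
    simp only [map_add, map_smul, LinearMap.add_apply, LinearMap.smul_apply, smul_eq_mul]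
    have u1 : S.T m a m = 0 := by rw [S.s23]; exact t4
    have u2 : S.T a m m = 0 := by rw [S.cyc]; exact t4
    have u3 : S.T m b m = 0 := by rw [S.s23]; exact t6
    have u4 : S.T b m m = 0 := by rw [S.cyc]; exact t6
    have u5 : S.T a m a = 0 := by rw [S.s23]; exact t5
    have u6 : S.T m a a = 0 := by rw [S.cyc]; exact t5
    have u7 : S.T b m b = 0 := by rw [S.s23]; exact t7
    have u8 : S.T m b b = 0 := by rw [S.cyc]; exact t7
    have w1 : S.T a m b = S.T a b m := S.s23 a m b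
    have w2 : S.T m a b = S.T a b m := S.cyc m a b
    have w3 : S.T m b a = S.T a b m := by rw [S.s23, w2]
    have w4 : S.T b a m = S.T a b m := S.s12 b a m
    have w5 : S.T b m a = S.T a b m := by rw [S.s23, w4]
    have x1 : S.T a b a = S.T a a b := S.s23 a b a
    have x2 : S.T b a a = S.T a a b := by rw [S.s12, x1]
    have y1 : S.T b a b = S.T a b b := S.s12 b a b
    have y2 : S.T b b a = S.T a b b := by rw [S.s23, y1]
    rw [t1, t2, t3, t4, t5, t6, t7, u1, u2, u3, u4, u5, u6, u7, u8, w1, w2, w3, w4, w5, x1, x2, y1,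
      y2]
    ring
  have hnP : ¬ P ≤ LinearMap.ker ρ := by
    intro h
    apply star hS hV hP hQ hIP hIQ hM ha ha' hb hb'
    · have h1 : ρ (0 + (1 : ℂ) • a + (0 : ℂ) • b) = 0 := by
        have : (0 : V) + (1 : ℂ) • a + (0 : ℂ) • b = a := by simp
        rw [this]
        exact h ha
      rw [hab 0 (zero_mem _)] at h1
      simpa using h1
    · intro m hm
      have h1 : ρ (m + (0 : ℂ) • a + (0 : ℂ) • b) = 0 := by
        have : m + (0 : ℂ) • a + (0 : ℂ) • b = m := by simp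
        rw [this]
        exact h hm.1
      rw [hab m hm] at h1
      simpa using h1
  have hnQ : ¬ Q ≤ LinearMap.ker ρ := by
    intro h
    apply star hS hV hQ hP hIQ hIP (by rw [inf_comm]; exact hM) hb hb' ha ha'
    · have h1 : ρ (0 + (0 : ℂ) • a + (1 : ℂ) • b) = 0 := by
        have : (0 : V) + (0 : ℂ) • a + (1 : ℂ) • b = b := by simp
        rw [this]
        exact h hb
      rw [hab 0 (zero_mem _)] at h1
      rw [S.s23, S.s12, S.s23] 
      simpa using h1
    · intro m hm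
      have hm' : m ∈ P ⊓ Q := ⟨hm.2, hm.1⟩
      have h1 : ρ (m + (0 : ℂ) • a + (0 : ℂ) • b) = 0 := by
        have : m + (0 : ℂ) • a + (0 : ℂ) • b = m := by simp
        rw [this]
        exact h hm'.2
      rw [hab m hm'] at h1
      rw [S.s12]
      simpa using h1
  have hker : 5 ≤ finrank ℂ ↥(LinearMap.ker ρ) := by
    have h1 := LinearMap.finrank_range_add_finrank_ker ρ
    have h2 : finrank ℂ ↥(LinearMap.range ρ) ≤ 1 := by
      have := Submodule.finrank_le (LinearMap.range ρ)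
      rwa [finrank_self] at this
    omega
  have hR : finrank ℂ ↥((P ⊔ Q) ⊓ LinearMap.ker ρ) = 3 := by
    have h1 := Submodule.finrank_sup_add_finrank_inf_eq (P ⊔ Q) (LinearMap.ker ρ)
    have h2 := Submodule.finrank_le ((P ⊔ Q) ⊔ LinearMap.ker ρ)
    rw [finrank_solid hP hQ hM] at h1
    rw [hV] at h2
    have h3 : finrank ℂ ↥((P ⊔ Q) ⊓ LinearMap.ker ρ) < finrank ℂ ↥(P ⊔ Q) := by
      apply Submodule.finrank_lt_finrank_of_lt
      refine lt_of_le_of_ne inf_le_left fun h => hnP ?_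
      rw [inf_eq_left] at h
      exact le_sup_left.trans h
    rw [finrank_solid hP hQ hM] at h3
    omega
  refine ⟨(P ⊔ Q) ⊓ LinearMap.ker ρ, hR, ?_, inf_le_left, ?_, ?_, ?_⟩
  · intro v hv
    obtain ⟨m, hm, s, r, rfl⟩ := hco v hv.1
    have h1 : ρ (m + s • a + r • b) = 0 := hv.2
    rw [hcube m hm s r, h1, mul_zero]
  · intro h
    apply hnP
    rw [← h]
    exact inf_le_right
  · intro h
    apply hnQ
    rw [← h]
    exact inf_le_right
  · intro v hv hv3
    obtain ⟨m, hm, s, r, rfl⟩ := hco v hv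
    rw [hcube m hm s r] at hv3
    rcases mul_eq_zero.mp hv3 with h1 | h1
    · rcases mul_eq_zero.mp h1 with h2 | h2
      · have hs : s = 0 := by
          rcases mul_eq_zero.mp h2 with h3 | h3
          · norm_num at h3
          · exact h3
        right; left
        rw [hs, zero_smul, add_zero]
        exact Q.add_mem hm.2 (Q.smul_mem r hb)
      · left
        rw [h2, zero_smul, add_zero]
        exact P.add_mem hm.1 (P.smul_mem s ha)
    · exact Or.inr (Or.inr ⟨hv, h1⟩)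

end Vale.Agent.P287.R2.H11
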